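import Mathlib
import Vale.Agent.Lib.P243.Defs

/-!
P243 (B), step E8: orthonormal coordinates in the plane `v^⊥` preserve area.

`w, θ` (as elements of `Plane v`) form an orthonormal basis of the 2-dimensional space `Plane v`;
use `OrthonormalBasis.measurePreserving_repr`, `EuclideanSpace.volume_preserving_measurableEquiv` (or
`PiLp.volume_preserving_ofLp`) and `MeasureTheory.volume_preserving_finTwoArrow`.  Since the map is a measurable
equivalence, the formula holds for arbitrary (also non-measurable) sets.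
-/

namespace Vale.Agent.Lib.P243.Cop

open MeasureTheory Set Vale.Agent.Lib.P243

lemma finrank_plane (v : Space) (hv : ‖v‖ = 1) : Module.finrank ℝ (Plane v) = 2 := by
  have hv0 : v ≠ 0 := by
    intro h
    rw [h, norm_zero] at hv
    exact zero_ne_one hv
  have : Fact (Module.finrank ℝ Space = 2 + 1) := ⟨by simp⟩
  exact Submodule.finrank_orthogonal_span_singleton hv0

lemma mem_perp {v x : Space} (h : inner ℝ x v = 0) : x ∈ perp v := by
  unfold perp
  rw [Submodule.mem_orthogonal_singleton_iff_inner_left]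
  exact h

/-- a vector orthogonal to `v` as an element of the plane. -/
def toPlane {v x : Space} (h : inner ℝ x v = 0) : Plane v := ⟨x, mem_perp h⟩

lemma inner_plane {v : Space} (a b : Plane v) : inner ℝ a b = inner ℝ a.val b.val := rfl

lemma toPlane_val {v x : Space} (h : inner ℝ x v = 0) : (toPlane h).val = x := rfl

lemma orthonormal_pair (v θ w : Space) (hθ : ‖θ‖ = 1) (hw : ‖w‖ = 1)
    (h1 : inner ℝ θ v = 0) (h2 : inner ℝ w v = 0) (h3 : inner ℝ θ w = 0) :
    Orthonormal ℝ (![toPlane h2, toPlane h1] : Fin 2 → Plane v) := by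
  rw [orthonormal_iff_ite]
  intro i j
  fin_cases i <;> fin_cases j
  · simp only [Fin.zero_eta, Matrix.cons_val_zero, if_true]
    rw [inner_plane, toPlane_val, real_inner_self_eq_norm_sq, hw]
    norm_num
  · simp only [Fin.zero_eta, Fin.mk_one, Matrix.cons_val_zero, Matrix.cons_val_one]
    rw [inner_plane, toPlane_val, toPlane_val, real_inner_comm, h3]
    simp
  · simp only [Fin.zero_eta, Fin.mk_one, Matrix.cons_val_zero, Matrix.cons_val_one]
    rw [inner_plane, toPlane_val, toPlane_val, h3]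
    simp
  · simp only [Fin.mk_one, Matrix.cons_val_one, Matrix.cons_val_zero, if_true]
    rw [inner_plane, toPlane_val, real_inner_self_eq_norm_sq, hθ]
    norm_num

/-- the orthonormal basis `(w, θ)` of the plane. -/
noncomputable def planeBasis (v θ w : Space) (hv : ‖v‖ = 1) (hθ : ‖θ‖ = 1) (hw : ‖w‖ = 1)
    (h1 : inner ℝ θ v = 0) (h2 : inner ℝ w v = 0) (h3 : inner ℝ θ w = 0) :
    OrthonormalBasis (Fin 2) ℝ (Plane v) :=
  OrthonormalBasis.mk (orthonormal_pair v θ w hθ hw h1 h2 h3) (by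
    rw [(orthonormal_pair v θ w hθ hw h1 h2 h3).linearIndependent.span_eq_top_of_card_eq_finrank
      (by rw [finrank_plane v hv]; rfl)])

lemma planeBasis_zero (v θ w : Space) (hv : ‖v‖ = 1) (hθ : ‖θ‖ = 1) (hw : ‖w‖ = 1)
    (h1 : inner ℝ θ v = 0) (h2 : inner ℝ w v = 0) (h3 : inner ℝ θ w = 0) :
    planeBasis v θ w hv hθ hw h1 h2 h3 0 = toPlane h2 := by
  unfold planeBasis
  rw [OrthonormalBasis.coe_mk]
  rfl

lemma planeBasis_one (v θ w : Space) (hv : ‖v‖ = 1) (hθ : ‖θ‖ = 1) (hw : ‖w‖ = 1)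
    (h1 : inner ℝ θ v = 0) (h2 : inner ℝ w v = 0) (h3 : inner ℝ θ w = 0) :
    planeBasis v θ w hv hθ hw h1 h2 h3 1 = toPlane h1 := by
  unfold planeBasis
  rw [OrthonormalBasis.coe_mk]
  rfl

/-- the coordinate map as a measurable equivalence. -/
noncomputable def coordEquiv {v : Space} (b : OrthonormalBasis (Fin 2) ℝ (Plane v)) :
    Plane v ≃ᵐ ℝ × ℝ :=
  (b.repr.toMeasurableEquiv.trans (MeasurableEquiv.toLp 2 (Fin 2 → ℝ)).symm).trans
    MeasurableEquiv.finTwoArrow

lemma coordEquiv_apply {v : Space} (b : OrthonormalBasis (Fin 2) ℝ (Plane v)) (x : Plane v) :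
    coordEquiv b x = (inner ℝ (b 0) x, inner ℝ (b 1) x) := by
  rw [← b.repr_apply_apply, ← b.repr_apply_apply]
  rfl

lemma coordEquiv_mp {v : Space} (b : OrthonormalBasis (Fin 2) ℝ (Plane v)) :
    MeasurePreserving (coordEquiv b) volume volume := by
  have h1 : MeasurePreserving b.repr volume volume := b.measurePreserving_repr
  have h2 : MeasurePreserving (WithLp.ofLp : EuclideanSpace ℝ (Fin 2) → (Fin 2 → ℝ)) volume volume :=
    PiLp.volume_preserving_ofLp (Fin 2)
  have h3 : MeasurePreserving (MeasurableEquiv.finTwoArrow : (Fin 2 → ℝ) ≃ᵐ ℝ × ℝ) volume volume :=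
    volume_preserving_finTwoArrow ℝ
  exact h3.comp (h2.comp h1)

theorem area_eq_coords (v θ w : Space) (hv : ‖v‖ = 1) (hθ : ‖θ‖ = 1) (hw : ‖w‖ = 1)
    (h1 : inner ℝ θ v = 0) (h2 : inner ℝ w v = 0) (h3 : inner ℝ θ w = 0) (X : Set (Plane v)) :
    area v X = volume ((fun b : Plane v => ((inner ℝ b.val w : ℝ), (inner ℝ b.val θ : ℝ))) '' X) := by
  have hfun : (fun b : Plane v => ((inner ℝ b.val w : ℝ), (inner ℝ b.val θ : ℝ)))
      = coordEquiv (planeBasis v θ w hv hθ hw h1 h2 h3) := by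
    funext x
    rw [coordEquiv_apply, planeBasis_zero, planeBasis_one, inner_plane, inner_plane, toPlane_val,
      toPlane_val, real_inner_comm, real_inner_comm θ]
  rw [hfun, MeasurableEquiv.image_eq_preimage_symm,
    (coordEquiv_mp (planeBasis v θ w hv hθ hw h1 h2 h3)).symm.measure_preimage_equiv]
  rfl

lemma normsq_coords (x : Space) : ‖x‖ ^ 2 = x 0 ^ 2 + x 1 ^ 2 + x 2 ^ 2 := by
  rw [EuclideanSpace.norm_sq_eq, Fin.sum_univ_three]
  simp only [Real.norm_eq_abs, sq_abs]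

lemma inner_coords (x y : Space) : inner ℝ x y = x 0 * y 0 + x 1 * y 1 + x 2 * y 2 := by
  rw [PiLp.inner_apply, Fin.sum_univ_three]
  simp only [RCLike.inner_apply, conj_trivial]
  ring

/-- In 3-space two orthonormal vectors can be completed by a third one. -/
theorem exists_third (θ w : Space) (hθ : ‖θ‖ = 1) (hw : ‖w‖ = 1) (h3 : inner ℝ θ w = 0) :
    ∃ v : Space, ‖v‖ = 1 ∧ inner ℝ θ v = 0 ∧ inner ℝ w v = 0 := by
  have a1 : θ 0 ^ 2 + θ 1 ^ 2 + θ 2 ^ 2 = 1 := by rw [← normsq_coords, hθ]; norm_num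
  have a2 : w 0 ^ 2 + w 1 ^ 2 + w 2 ^ 2 = 1 := by rw [← normsq_coords, hw]; norm_num
  have a3 : θ 0 * w 0 + θ 1 * w 1 + θ 2 * w 2 = 0 := by rw [← inner_coords, h3]
  refine ⟨!₂[θ 1 * w 2 - θ 2 * w 1, θ 2 * w 0 - θ 0 * w 2, θ 0 * w 1 - θ 1 * w 0], ?_, ?_, ?_⟩
  · have h : ‖(!₂[θ 1 * w 2 - θ 2 * w 1, θ 2 * w 0 - θ 0 * w 2, θ 0 * w 1 - θ 1 * w 0] : Space)‖ ^ 2
        = 1 := by
      rw [normsq_coords]
      simp only [Matrix.cons_val_zero, Matrix.cons_val_one, Matrix.cons_val]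
      have : (θ 1 * w 2 - θ 2 * w 1) ^ 2 + (θ 2 * w 0 - θ 0 * w 2) ^ 2 + (θ 0 * w 1 - θ 1 * w 0) ^ 2
          = (θ 0 ^ 2 + θ 1 ^ 2 + θ 2 ^ 2) * (w 0 ^ 2 + w 1 ^ 2 + w 2 ^ 2)
            - (θ 0 * w 0 + θ 1 * w 1 + θ 2 * w 2) ^ 2 := by ring
      rw [this, a1, a2, a3]
      norm_num
    have h0 := norm_nonneg (!₂[θ 1 * w 2 - θ 2 * w 1, θ 2 * w 0 - θ 0 * w 2, θ 0 * w 1 - θ 1 * w 0] : Space)
    nlinarith
  · rw [inner_coords]
    simp only [Matrix.cons_val_zero, Matrix.cons_val_one, Matrix.cons_val]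
    ring
  · rw [inner_coords]
    simp only [Matrix.cons_val_zero, Matrix.cons_val_one, Matrix.cons_val]
    ring

end Vale.Agent.Lib.P243.Cop
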