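import Mathlib
import Vale.Agent.Lib.P243.Area

/-!
P243 (B), step E6: a planar convex compact set `P` over the interval `[t0, t1]` (first coordinate) has, at
every height `t`, a vertical section of length at least `(area P / (t1 - t0)) * tent t`.

Let `tm = (t0+t1)/2`, `hh = (t1-t0)/2`, and `[lo, hi]` the section at `tm`.  `hh_bound` (file `Area.lean`) gives
`area P ≤ 2 hh (hi - lo)` (Hermite-Hadamard).  For `t ≤ tm` the points
`(1-λ) (t0, y0) + λ (tm, hi)`, `(1-λ) (t0, y0) + λ (tm, lo)` with `λ = (t - t0)/hh` lie in `P`, at height `t`, at distance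
`λ (hi - lo)`, and `λ = 1 - |t - tm|/hh`; similarly for `t ≥ tm`.
-/

namespace Vale.Agent.Lib.P243.Cop

open MeasureTheory Set

/-- a convex combination of two points of the plane, in coordinates -/
theorem sec_comb {P : Set (ℝ × ℝ)} (hP : Convex ℝ P) {a b c d l : ℝ} (h1 : (a, b) ∈ P)
    (h2 : (c, d) ∈ P) (hl0 : 0 ≤ l) (hl1 : l ≤ 1) :
    ((1 - l) * a + l * c, (1 - l) * b + l * d) ∈ P := by
  have h := hP h1 h2 (sub_nonneg.mpr hl1) hl0 (by ring)
  simpa using h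

/-- every level between the two extreme ones is attained -/
theorem sec_level {P : Set (ℝ × ℝ)} (hP : Convex ℝ P) {t0 t1 y0 y1 : ℝ} (h01 : t0 < t1)
    (h0 : (t0, y0) ∈ P) (h1 : (t1, y1) ∈ P) {t : ℝ} (ht0 : t0 ≤ t) (ht1 : t ≤ t1) :
    ∃ y, (t, y) ∈ P := by
  have hpos : 0 < t1 - t0 := sub_pos.mpr h01
  have h := sec_comb hP h0 h1 (l := (t - t0) / (t1 - t0)) (div_nonneg (by linarith) hpos.le)
    ((div_le_one hpos).mpr (by linarith))
  have e : (1 - (t - t0) / (t1 - t0)) * t0 + (t - t0) / (t1 - t0) * t1 = t := by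
    field_simp
    ring
  rw [e] at h
  exact ⟨_, h⟩

/-- Hermite-Hadamard: the area is at most the width times the length of the middle section. -/
theorem sec_area_le {P : Set (ℝ × ℝ)} (hP : Convex ℝ P) (hc : IsCompact P) {t0 t1 : ℝ}
    (h01 : t0 < t1) (hr : ∀ p ∈ P, t0 ≤ p.1 ∧ p.1 ≤ t1) (h0 : ∃ y, (t0, y) ∈ P)
    (h1 : ∃ y, (t1, y) ∈ P) :
    ∃ lo hi : ℝ, ((t0 + t1) / 2, lo) ∈ P ∧ ((t0 + t1) / 2, hi) ∈ P ∧ lo ≤ hi ∧
      (volume P).toReal ≤ (t1 - t0) * (hi - lo) := by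
  obtain ⟨y0, hy0⟩ := h0
  obtain ⟨y1, hy1⟩ := h1
  set tm := (t0 + t1) / 2 with htm
  set hh := (t1 - t0) / 2 with hhh
  have hlevel : ∀ t, t0 ≤ t → t ≤ t1 → ∃ y, (t, y) ∈ P := fun t a b =>
    sec_level hP h01 hy0 hy1 a b
  -- the middle section
  set Pm : Set (ℝ × ℝ) := P ∩ {p | p.1 = tm} with hPm
  have hPmc : IsCompact Pm := hc.inter_right (isClosed_eq continuous_fst continuous_const)
  have hPmne : Pm.Nonempty := by
    obtain ⟨y, hy⟩ := hlevel tm (by rw [htm]; linarith) (by rw [htm]; linarith)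
    exact ⟨(tm, y), hy, rfl⟩
  obtain ⟨T, hT, hTmax⟩ := hPmc.exists_isMaxOn hPmne continuous_snd.continuousOn
  obtain ⟨B, hB, hBmin⟩ := hPmc.exists_isMinOn hPmne continuous_snd.continuousOn
  have hTmax' : ∀ p ∈ Pm, p.2 ≤ T.2 := fun p hp => hTmax hp
  have hBmin' : ∀ p ∈ Pm, B.2 ≤ p.2 := fun p hp => hBmin hp
  have hTP : (tm, T.2) ∈ P := by
    have : T = (tm, T.2) := Prod.ext hT.2 rfl
    rw [← this]; exact hT.1
  have hBP : (tm, B.2) ∈ P := by
    have : B = (tm, B.2) := Prod.ext hB.2 rfl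
    rw [← this]; exact hB.1
  have hlohi : B.2 ≤ T.2 := hTmax' B hB
  refine ⟨B.2, T.2, hBP, hTP, hlohi, ?_⟩
  have hV : volume P ≤ ENNReal.ofReal (2 * hh) * ENNReal.ofReal (T.2 - B.2) := by
    refine Vale.Agent.Lib.P243.hh_bound P hc.measurableSet tm hh B.2 T.2 ?_ ?_ ?_
    · intro p hp
      obtain ⟨a1, a2⟩ := hr p hp
      rw [abs_le]
      constructor <;> simp only [htm, hhh] <;> linarith
    · intro s y y' hy hy'
      have hm := sec_comb hP hy hy' (l := 1 / 2) (by norm_num) (by norm_num)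
      have hmm : ((1 - 1 / 2) * (tm + s) + 1 / 2 * (tm - s), (1 - 1 / 2) * y + 1 / 2 * y') ∈ Pm := by
        refine ⟨hm, ?_⟩
        simp only [mem_setOf_eq]
        ring
      have b1 := hBmin' _ hmm
      have b2 := hTmax' _ hmm
      simp only at b1 b2
      constructor <;> linarith
    · intro s y hy
      obtain ⟨a1, a2⟩ := hr _ hy
      simp only at a1 a2
      exact hlevel (tm - s) (by simp only [htm] at a2 ⊢; linarith)
        (by simp only [htm] at a1 ⊢; linarith)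
  have hhpos : 0 ≤ 2 * hh := by rw [hhh]; linarith
  rw [← ENNReal.ofReal_mul hhpos] at hV
  have h3 := ENNReal.toReal_mono ENNReal.ofReal_ne_top hV
  rw [ENNReal.toReal_ofReal (mul_nonneg hhpos (sub_nonneg.mpr hlohi))] at h3
  have e : 2 * hh = t1 - t0 := by rw [hhh]; ring
  rwa [e] at h3

theorem section_ge_tent {P : Set (ℝ × ℝ)} (hP : Convex ℝ P) (hc : IsCompact P) {t0 t1 : ℝ}
    (h01 : t0 < t1) (hr : ∀ p ∈ P, t0 ≤ p.1 ∧ p.1 ≤ t1) (h0 : ∃ y, (t0, y) ∈ P)
    (h1 : ∃ y, (t1, y) ∈ P) {t : ℝ} (ht : t ∈ Icc t0 t1) :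
    ∃ y y' : ℝ, (t, y) ∈ P ∧ (t, y') ∈ P ∧
      (volume P).toReal / (t1 - t0) * (1 - |t - (t0 + t1) / 2| / ((t1 - t0) / 2)) ≤ y - y' := by
  obtain ⟨lo, hi, hlo, hhi, hlohi, harea⟩ := sec_area_le hP hc h01 hr h0 h1
  obtain ⟨y0, hy0⟩ := h0
  obtain ⟨y1, hy1⟩ := h1
  have hpos : 0 < t1 - t0 := sub_pos.mpr h01
  have hhpos : 0 < (t1 - t0) / 2 := by linarith
  have hq : (volume P).toReal / (t1 - t0) ≤ hi - lo := by
    rw [div_le_iff₀ hpos]
    linarith
  rcases le_total t ((t0 + t1) / 2) with hle | hge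
  · set l := (t - t0) / ((t1 - t0) / 2) with hl
    have hl0 : 0 ≤ l := div_nonneg (by linarith [ht.1]) hhpos.le
    have hl1 : l ≤ 1 := (div_le_one hhpos).mpr (by linarith)
    have e : (1 - l) * t0 + l * ((t0 + t1) / 2) = t := by
      rw [hl]; field_simp; ring
    have hA := sec_comb hP hy0 hhi hl0 hl1
    have hB := sec_comb hP hy0 hlo hl0 hl1
    rw [e] at hA hB
    refine ⟨_, _, hA, hB, ?_⟩
    have habs : |t - (t0 + t1) / 2| = (t0 + t1) / 2 - t := by
      rw [abs_of_nonpos (by linarith)]; ring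
    have etent : 1 - |t - (t0 + t1) / 2| / ((t1 - t0) / 2) = l := by
      rw [habs, hl]; field_simp; ring
    rw [etent]
    calc (volume P).toReal / (t1 - t0) * l ≤ (hi - lo) * l := mul_le_mul_of_nonneg_right hq hl0
      _ = (1 - l) * y0 + l * hi - ((1 - l) * y0 + l * lo) := by ring
  · set l := (t1 - t) / ((t1 - t0) / 2) with hl
    have hl0 : 0 ≤ l := div_nonneg (by linarith [ht.2]) hhpos.le
    have hl1 : l ≤ 1 := (div_le_one hhpos).mpr (by linarith)
    have e : (1 - l) * t1 + l * ((t0 + t1) / 2) = t := by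
      rw [hl]; field_simp; ring
    have hA := sec_comb hP hy1 hhi hl0 hl1
    have hB := sec_comb hP hy1 hlo hl0 hl1
    rw [e] at hA hB
    refine ⟨_, _, hA, hB, ?_⟩
    have habs : |t - (t0 + t1) / 2| = t - (t0 + t1) / 2 := abs_of_nonneg (by linarith)
    have etent : 1 - |t - (t0 + t1) / 2| / ((t1 - t0) / 2) = l := by
      rw [habs, hl]; field_simp; ring
    rw [etent]
    calc (volume P).toReal / (t1 - t0) * l ≤ (hi - lo) * l := mul_le_mul_of_nonneg_right hq hl0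
      _ = (1 - l) * y1 + l * hi - ((1 - l) * y1 + l * lo) := by ring

end Vale.Agent.Lib.P243.Cop
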