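import Mathlib
import Vale.Agent.Lib.P243.Area
import Vale.Agent.Lib.P243.Bang.General
import Vale.Agent.Lib.P243.Cop.Section

/-!
P243 (B), step E7: the abstract core.  `K ⊆ ℝ × E` (height, position), generalised planks in every slice.

Let `[t0, t1]` be the range of the height on `K`.  If `t0 = t1` every `P_θ` is a null set, so `a = 0`
(a unit vector exists because `K ≠ ∅` forces `m > 0`).  Otherwise, for `t ∈ [t0, t1]` the slice
`S_t = {p | (t,p) ∈ K}` is compact convex nonempty and, by `section_ge_tent` applied to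
`P_θ = (fun x => (x.1, ⟨x.2, θ⟩)) '' K`, all its widths are at least
`ω t = a.toReal / (t1 - t0) * (1 - |t - tm| / hh)` (`a < ⊤` since `P_θ` is compact).
`bang_general` gives `ofReal (ω t) ≤ ∑ i, |{s | (t,s) ∈ B i}|`.  Replace `B i` by `toMeasurable volume (B i)`, integrate
in `t` (`Measure.prod_apply`, `lintegral_finset_sum`) and use `tent_integral` (file `Area.lean`, after the shift
`t = tm + s`).
-/

namespace Vale.Agent.Lib.P243.Cop

open MeasureTheory Set

section aux

variable {E : Type*} [NormedAddCommGroup E] [InnerProductSpace ℝ E]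

/-- the shadow map as a continuous linear map -/
noncomputable def shadowMap (θ : E) : (ℝ × E) →L[ℝ] (ℝ × ℝ) :=
  (ContinuousLinearMap.fst ℝ ℝ E).prod
    ((innerSL ℝ θ).comp (ContinuousLinearMap.snd ℝ ℝ E))

theorem shadow_apply (θ : E) (x : ℝ × E) : shadowMap θ x = (x.1, inner ℝ x.2 θ) := by
  simp [shadowMap, real_inner_comm]

theorem shadow_image (θ : E) (K : Set (ℝ × E)) :
    (fun x : ℝ × E => (x.1, inner ℝ x.2 θ)) '' K = shadowMap θ '' K := by
  apply image_congr
  intro x _
  rw [shadow_apply]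

theorem slice_convex {K : Set (ℝ × E)} (hK : Convex ℝ K) (t : ℝ) :
    Convex ℝ {p : E | (t, p) ∈ K} := by
  intro p hp q hq a b ha hb hab
  have := hK hp hq ha hb hab
  simp only [mem_setOf_eq] at hp hq ⊢
  have h2 : a • ((t, p) : ℝ × E) + b • ((t, q) : ℝ × E) = (t, a • p + b • q) := by
    ext
    · simp only [Prod.fst_add, Prod.smul_fst, smul_eq_mul]
      rw [← add_mul, hab, one_mul]
    · simp
  rwa [h2] at this

theorem slice_compact {K : Set (ℝ × E)} (hc : IsCompact K) (t : ℝ) :
    IsCompact {p : E | (t, p) ∈ K} := by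
  have h1 : IsCompact (Prod.snd '' K) := hc.image continuous_snd
  have h2 : IsClosed {p : E | (t, p) ∈ K} :=
    hc.isClosed.preimage (Continuous.prodMk_right t)
  exact h1.of_isClosed_subset h2 (fun p hp => ⟨(t, p), hp, rfl⟩)

end aux

theorem coplanar_core {E : Type*} [NormedAddCommGroup E] [InnerProductSpace ℝ E]
    [FiniteDimensional ℝ E] {K : Set (ℝ × E)} (hK : Convex ℝ K) (hc : IsCompact K)
    (hne : K.Nonempty) (m : ℕ) (n : Fin m → E) (hn : ∀ i, ‖n i‖ = 1) (B : Fin m → Set (ℝ × ℝ))
    (hcov : ∀ x ∈ K, ∃ i, (x.1, inner ℝ x.2 (n i)) ∈ B i) (a : ENNReal)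
    (ha : ∀ θ : E, ‖θ‖ = 1 → a ≤ volume ((fun x : ℝ × E => (x.1, inner ℝ x.2 θ)) '' K)) :
    a / 2 ≤ ∑ i, volume (B i) := by
  -- a unit vector
  obtain ⟨θ0, hθ0⟩ : ∃ θ0 : E, ‖θ0‖ = 1 := by
    obtain ⟨x, hx⟩ := hne
    obtain ⟨i, -⟩ := hcov x hx
    exact ⟨n i, hn i⟩
  -- extreme heights
  obtain ⟨x0, hx0, hmin⟩ := hc.exists_isMinOn hne continuous_fst.continuousOn
  obtain ⟨x1, hx1, hmax⟩ := hc.exists_isMaxOn hne continuous_fst.continuousOn
  have hmin' : ∀ x ∈ K, x0.1 ≤ x.1 := fun x hx => hmin hx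
  have hmax' : ∀ x ∈ K, x.1 ≤ x1.1 := fun x hx => hmax hx
  set t0 := x0.1 with ht0
  set t1 := x1.1 with ht1
  have h01 : t0 ≤ t1 := hmin' x1 hx1
  -- shadows are compact, of finite measure
  have hPc : ∀ θ : E, IsCompact ((fun x : ℝ × E => (x.1, inner ℝ x.2 θ)) '' K) := fun θ => by
    rw [shadow_image]
    exact hc.image (shadowMap θ).continuous
  have hPconv : ∀ θ : E, Convex ℝ ((fun x : ℝ × E => (x.1, inner ℝ x.2 θ)) '' K) := fun θ => by
    rw [shadow_image]
    exact hK.linear_image (shadowMap θ).toLinearMap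
  have hPfin : ∀ θ : E, volume ((fun x : ℝ × E => (x.1, inner ℝ x.2 θ)) '' K) < ⊤ :=
    fun θ => (hPc θ).measure_lt_top
  have hatop : a < ⊤ := lt_of_le_of_lt (ha θ0 hθ0) (hPfin θ0)
  rcases h01.eq_or_lt with heq | hlt
  · -- degenerate case
    have hsub : (fun x : ℝ × E => (x.1, inner ℝ x.2 θ0)) '' K ⊆ ({t0} : Set ℝ) ×ˢ (univ : Set ℝ) := by
      rintro _ ⟨x, hx, rfl⟩
      refine ⟨?_, mem_univ _⟩
      simp only [mem_singleton_iff]
      exact le_antisymm (heq ▸ hmax' x hx) (hmin' x hx)
    have hz : volume (({t0} : Set ℝ) ×ˢ (univ : Set ℝ)) = 0 := by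
      rw [Measure.volume_eq_prod, Measure.prod_prod]
      simp
    have ha0 : a = 0 := by
      have := (ha θ0 hθ0).trans (measure_mono hsub)
      rw [hz] at this
      exact le_antisymm this bot_le
    rw [ha0]
    simp
  -- main case
  set c : ℝ := a.toReal / (t1 - t0) with hcdef
  set hh : ℝ := (t1 - t0) / 2 with hhdef
  set tm : ℝ := (t0 + t1) / 2 with htm
  have hd : 0 < t1 - t0 := by linarith
  have hc0 : 0 ≤ c := div_nonneg ENNReal.toReal_nonneg hd.le
  have hh0 : 0 < hh := by positivity
  set B' : Fin m → Set (ℝ × ℝ) := fun i => toMeasurable volume (B i) with hB'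
  have hB'm : ∀ i, MeasurableSet (B' i) := fun i => measurableSet_toMeasurable _ _
  have hBB' : ∀ i, B i ⊆ B' i := fun i => subset_toMeasurable _ _
  have hB'v : ∀ i, volume (B' i) = volume (B i) := fun i => measure_toMeasurable _
  -- pointwise bound
  have key : ∀ t : ℝ, ENNReal.ofReal (c * (1 - |t - tm| / hh))
      ≤ ∑ i, volume (Prod.mk t ⁻¹' B' i) := by
    intro t
    by_cases ht : t ∈ Icc t0 t1
    · have htent : 0 ≤ 1 - |t - tm| / hh := by
        have : |t - tm| ≤ hh := by
          rw [abs_le]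
          constructor
          · have := ht.1
            simp only [htm, hhdef]; linarith
          · have := ht.2
            simp only [htm, hhdef]; linarith
        have : |t - tm| / hh ≤ 1 := (div_le_one hh0).2 this
        linarith
      -- the slice
      have hSne : {p : E | (t, p) ∈ K}.Nonempty := by
        set lam : ℝ := (t - t0) / (t1 - t0) with hlam
        have hl0 : 0 ≤ lam := div_nonneg (by linarith [ht.1]) hd.le
        have hl1 : lam ≤ 1 := (div_le_one hd).2 (by linarith [ht.2])
        have hmem := hK hx0 hx1 (sub_nonneg.2 hl1) hl0 (by ring)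
        refine ⟨(1 - lam) • x0.2 + lam • x1.2, ?_⟩
        have : (1 - lam) • x0 + lam • x1 = (t, (1 - lam) • x0.2 + lam • x1.2) := by
          ext
          · simp only [Prod.fst_add, Prod.smul_fst, smul_eq_mul]
            have : lam * (t1 - t0) = t - t0 := by
              rw [hlam]; field_simp
            rw [← ht0, ← ht1]
            linarith
          · simp
        simp only [mem_setOf_eq]
        rwa [← this]
      have hw : ∀ θ : E, ‖θ‖ = 1 → ∃ x ∈ {p : E | (t, p) ∈ K}, ∃ y ∈ {p : E | (t, p) ∈ K},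
          c * (1 - |t - tm| / hh) ≤ inner ℝ (x - y) θ := by
        intro θ hθ
        obtain ⟨y, y', hy, hy', hyy⟩ := section_ge_tent (hPconv θ) (hPc θ) hlt
          (by
            rintro _ ⟨x, hx, rfl⟩
            exact ⟨hmin' x hx, hmax' x hx⟩)
          ⟨inner ℝ x0.2 θ, x0, hx0, rfl⟩ ⟨inner ℝ x1.2 θ, x1, hx1, rfl⟩ ht
        obtain ⟨x, hx, hxe⟩ := hy
        obtain ⟨x', hx', hxe'⟩ := hy'
        simp only [Prod.mk.injEq] at hxe hxe'
        refine ⟨x.2, ?_, x'.2, ?_, ?_⟩
        · simp only [mem_setOf_eq]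
          rw [← hxe.1]; exact hx
        · simp only [mem_setOf_eq]
          rw [← hxe'.1]; exact hx'
        · rw [inner_sub_left, hxe.2, hxe'.2]
          refine le_trans ?_ hyy
          apply mul_le_mul_of_nonneg_right _ htent
          apply div_le_div_of_nonneg_right _ hd.le
          exact ENNReal.toReal_mono (hPfin θ).ne (ha θ hθ)
      have hb := Bang.bang_general m (slice_convex hK t) (slice_compact hc t) hSne hw n hn
        (fun i => Prod.mk t ⁻¹' B i) (by
          intro p hp
          obtain ⟨i, hi⟩ := hcov (t, p) hp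
          exact ⟨i, hi⟩)
      refine hb.trans (Finset.sum_le_sum fun i _ => measure_mono ?_)
      exact preimage_mono (hBB' i)
    · have hneg : c * (1 - |t - tm| / hh) ≤ 0 := by
        apply mul_nonpos_of_nonneg_of_nonpos hc0
        have : hh ≤ |t - tm| := by
          rw [mem_Icc, not_and_or, not_le, not_le] at ht
          rcases ht with h | h
          · rw [le_abs]; right
            simp only [htm, hhdef]; linarith
          · rw [le_abs]; left
            simp only [htm, hhdef]; linarith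
        have : 1 ≤ |t - tm| / hh := (one_le_div hh0).2 this
        linarith
      rw [ENNReal.ofReal_of_nonpos hneg]
      exact bot_le
  -- integrate
  have hint : ∫⁻ t : ℝ, ENNReal.ofReal (c * (1 - |t - tm| / hh))
      ≤ ∑ i, volume (B i) := by
    calc ∫⁻ t : ℝ, ENNReal.ofReal (c * (1 - |t - tm| / hh))
        ≤ ∫⁻ t : ℝ, ∑ i, volume (Prod.mk t ⁻¹' B' i) := lintegral_mono key
      _ = ∑ i, ∫⁻ t : ℝ, volume (Prod.mk t ⁻¹' B' i) := by
          rw [lintegral_finset_sum]
          intro i _
          exact measurable_measure_prodMk_left (hB'm i)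
      _ = ∑ i, volume (B i) := by
          apply Finset.sum_congr rfl
          intro i _
          rw [← hB'v i, Measure.volume_eq_prod, Measure.prod_apply (hB'm i)]
  have hshift : ∫⁻ t : ℝ, ENNReal.ofReal (c * (1 - |t - tm| / hh))
      = ∫⁻ s : ℝ, ENNReal.ofReal (c * (1 - |s| / hh)) :=
    lintegral_sub_right_eq_self (fun s : ℝ => ENNReal.ofReal (c * (1 - |s| / hh))) tm
  have htent := Vale.Agent.Lib.P243.tent_integral c hh hc0 hh0
  have hval : ENNReal.ofReal (c * hh) = a / 2 := by
    have : c * hh = a.toReal / 2 := by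
      rw [hcdef, hhdef]; field_simp
    rw [this, ENNReal.ofReal_div_of_pos (by norm_num), ENNReal.ofReal_toReal hatop.ne]
    simp
  rw [← hval]
  exact htent.trans (hshift ▸ hint)

end Vale.Agent.Lib.P243.Cop
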