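import Mathlib
import Vale.Agent.Lib.P243.Defs
import Vale.Agent.Lib.P243.Cop.Core
import Vale.Agent.Lib.P243.Cop.Coords

/-!
P243 (B), step E9: statement of the hand-in `CoplanarAxes`.

Apply `coplanar_core` with `E = Plane w`, `K' = (fun x => (⟨x,w⟩, proj_w x)) '' K`, `n i` = a unit vector orthogonal
to `u i` and `w` (`exists_third`), viewed in `Plane w`, `B' i` = the image of `B i` under the coordinates
`b ↦ (⟨b,w⟩, ⟨b,n i⟩)` of `Plane (u i)` (`area_eq_coords`), `a = A_min`.  For a unit `θ ∈ Plane w` choose `v` by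
`exists_third`; the coordinates of `shadow K v` are exactly `P_θ`.
-/

namespace Vale.Agent.Lib.P243.Cop

open MeasureTheory Set Vale.Agent.Lib.P243

/-- The coordinate map `x ↦ (⟨w,x⟩, proj_w x)`. -/
noncomputable def split (w : Space) : Space →L[ℝ] ℝ × ↥(perp w) :=
  (innerSL ℝ w).prod (perp w).orthogonalProjectionOnto

theorem split_fst (w x : Space) : (split w x).1 = inner ℝ x w := by
  simp [split, real_inner_comm]

theorem split_snd_inner (w x : Space) (θ : ↥(perp w)) :
    inner ℝ (split w x).2 θ = inner ℝ x (θ : Space) := by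
  have h : (split w x).2 = (perp w).orthogonalProjectionOnto x := rfl
  rw [h]
  exact Submodule.inner_orthogonalProjectionOnto_eq_of_mem_right θ x

theorem coplanar_axes (K : Set Space) (hconv : Convex ℝ K) (hcomp : IsCompact K)
    (hint : (interior K).Nonempty) (w : Space) (hw : ‖w‖ = 1) (m : ℕ) (u : Fin m → Space)
    (hu : ∀ i, ‖u i‖ = 1) (hperp : ∀ i, inner ℝ (u i) w = 0) (B : ∀ i, Set (Plane (u i)))
    (hcov : K ⊆ ⋃ i, cylinder (u i) (B i)) :
    1 / 2 * (⨅ (v : Space) (_ : ‖v‖ = 1), area v (shadow K v)) ≤ ∑ i, area (u i) (B i) := by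
  have hex : ∀ i, ∃ v : Space, ‖v‖ = 1 ∧ inner ℝ (u i) v = 0 ∧ inner ℝ w v = 0 :=
    fun i => exists_third (u i) w (hu i) hw (hperp i)
  choose v hv1 hv2 hv3 using hex
  have hmem : ∀ i, v i ∈ perp w := fun i =>
    Submodule.mem_orthogonal_singleton_iff_inner_right.2 (hv3 i)
  set a : ENNReal := ⨅ (v : Space) (_ : ‖v‖ = 1), area v (shadow K v) with ha_def
  have hKne : K.Nonempty := hint.mono interior_subset
  have key := coplanar_core (E := ↥(perp w)) (K := split w '' K)
    (hconv.linear_image (split w).toLinearMap) (hcomp.image (split w).continuous)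
    (hKne.image _) m (fun i => ⟨v i, hmem i⟩) (fun i => hv1 i)
    (fun i => (fun b : Plane (u i) => ((inner ℝ b.val w : ℝ), (inner ℝ b.val (v i) : ℝ))) '' B i)
    ?_ a ?_
  · have harea : ∀ i, area (u i) (B i) = volume
        ((fun b : Plane (u i) => ((inner ℝ b.val w : ℝ), (inner ℝ b.val (v i) : ℝ))) '' B i) :=
      fun i => area_eq_coords (u i) (v i) w (hu i) (hv1 i) hw
        (by rw [real_inner_comm]; exact hv2 i) (by rw [real_inner_comm]; exact hperp i)
        (by rw [real_inner_comm]; exact hv3 i) (B i)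
    have h2 : 1 / 2 * a = a / 2 := by
      rw [one_div, ENNReal.div_eq_inv_mul]
    rw [h2]
    refine key.trans (le_of_eq ?_)
    exact Finset.sum_congr rfl fun i _ => (harea i).symm
  · rintro _ ⟨x, hx, rfl⟩
    obtain ⟨i, b, hb, s, rfl⟩ := mem_iUnion.1 (hcov hx)
    refine ⟨i, b, hb, ?_⟩
    rw [split_fst, split_snd_inner]
    simp only [inner_add_left, inner_smul_left, hperp i, hv2 i, mul_zero, add_zero]
  · intro θ hθ
    have hθ1 : ‖(θ : Space)‖ = 1 := hθ
    have hθw : inner ℝ (θ : Space) w = 0 := by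
      rw [real_inner_comm]
      exact Submodule.mem_orthogonal_singleton_iff_inner_right.1 θ.2
    obtain ⟨z, hz1, hz2, hz3⟩ := exists_third (θ : Space) w hθ1 hw hθw
    have hle : a ≤ area z (shadow K z) := iInf₂_le z hz1
    refine hle.trans ?_
    rw [area_eq_coords z (θ : Space) w hz1 hθ1 hw hz2 hz3 hθw]
    refine measure_mono ?_
    rintro _ ⟨b, ⟨s, hs⟩, rfl⟩
    refine ⟨split w (b.val + s • z), ⟨_, hs, rfl⟩, ?_⟩
    have e1 : inner ℝ z w = 0 := by rw [real_inner_comm]; exact hz3
    have e2 : inner ℝ z (θ : Space) = 0 := by rw [real_inner_comm]; exact hz2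
    simp only [split_fst, split_snd_inner, inner_add_left, inner_smul_left, e1, e2, mul_zero,
      add_zero]

end Vale.Agent.Lib.P243.Cop
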